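import Vale.Agent.P088.H442.C.Defs

/-!
# Row C_AL: linear algebra
-/

open scoped Matrix

noncomputable section

namespace Vale.Agent.P088.LR.CC.H74

open CF

variable {n : ℕ}

theorem exists_orth (i0 : Fin n) (ν : V n) (hν : ∑ j, ν j ^ 2 = 1) :
    ∃ O : Matrix (Fin n) (Fin n) ℝ, O * Oᵀ = 1 ∧ Oᵀ * O = 1 ∧ ∀ j, O i0 j = ν j := by
  classical
  let v : Fin n → EuclideanSpace ℝ (Fin n) := fun _ => WithLp.toLp 2 ν
  have hv : Orthonormal ℝ (({i0} : Set (Fin n)).domRestrict v) := by
    constructor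
    · intro i
      change ‖(WithLp.toLp 2 ν : EuclideanSpace ℝ (Fin n))‖ = 1
      rw [EuclideanSpace.norm_eq]
      simp only [Real.norm_eq_abs, sq_abs, hν, Real.sqrt_one]
    · intro i j hij
      exact absurd (Subsingleton.elim i j) hij
  obtain ⟨b, hb⟩ := hv.exists_orthonormalBasis_extension_of_card_eq (by simp)
  have h1 : (Matrix.of fun j l => b j l : Matrix (Fin n) (Fin n) ℝ) *
      (Matrix.of fun j l => b j l : Matrix (Fin n) (Fin n) ℝ)ᵀ = 1 := by
    ext j k
    rw [Matrix.mul_apply, Matrix.one_apply]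
    have h := orthonormal_iff_ite.mp b.orthonormal j k
    rw [PiLp.inner_apply] at h
    rw [← h]
    refine Finset.sum_congr rfl fun l _ => ?_
    simp [mul_comm]
  refine ⟨Matrix.of fun j l => b j l, h1, mul_eq_one_comm.mp h1, fun j => ?_⟩
  rw [Matrix.of_apply, hb i0 rfl]

/-- The bilinear form of `H`. -/
def Q (H : Fin n → Fin n → ℂ) (x y : Fin n → ℂ) : ℂ := ∑ j, ∑ l, x j * y l * H j l

theorem Q_symm {H : Fin n → Fin n → ℂ} (hH : ∀ i j, H i j = H j i) (x y : Fin n → ℂ) :
    Q H x y = Q H y x := by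
  unfold Q
  rw [Finset.sum_comm]
  refine Finset.sum_congr rfl fun j _ => Finset.sum_congr rfl fun l _ => ?_
  rw [hH l j]
  ring

theorem Q_mk {H : Fin n → Fin n → ℂ} (hH : ∀ i j, H i j = H j i) (e p : V n) :
    ∑ j, ∑ l, (⟨e j, p j⟩ : ℂ) * (⟨e l, p l⟩ : ℂ) * H j l =
      Q H (fun j => (e j : ℂ)) (fun j => (e j : ℂ)) - Q H (fun j => (p j : ℂ)) (fun j => (p j : ℂ))
        + 2 * Complex.I * Q H (fun j => (e j : ℂ)) (fun j => (p j : ℂ)) := by
  have h : 2 * Complex.I * Q H (fun j => (e j : ℂ)) (fun j => (p j : ℂ)) =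
      Complex.I * Q H (fun j => (e j : ℂ)) (fun j => (p j : ℂ)) +
      Complex.I * Q H (fun j => (p j : ℂ)) (fun j => (e j : ℂ)) := by
    rw [Q_symm hH (fun j => (p j : ℂ))]
    ring
  rw [h]
  unfold Q
  simp only [Finset.mul_sum, ← Finset.sum_sub_distrib, ← Finset.sum_add_distrib]
  refine Finset.sum_congr rfl fun j _ => Finset.sum_congr rfl fun l _ => ?_
  rw [Complex.mk_eq_add_mul_I, Complex.mk_eq_add_mul_I]
  linear_combination (-(p j : ℂ) * p l * H j l) * (-Complex.I_sq)

theorem Q_neg_right (H : Fin n → Fin n → ℂ) (x y : Fin n → ℂ) :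
    Q H x (fun j => -y j) = - Q H x y := by
  unfold Q
  simp only [← Finset.sum_neg_distrib]
  refine Finset.sum_congr rfl fun j _ => Finset.sum_congr rfl fun l _ => ?_
  ring

theorem Q_neg_neg (H : Fin n → Fin n → ℂ) (x y : Fin n → ℂ) :
    Q H (fun j => -x j) (fun j => -y j) = Q H x y := by
  unfold Q
  refine Finset.sum_congr rfl fun j _ => Finset.sum_congr rfl fun l _ => ?_
  ring

/-- Orthonormal pairs. -/
theorem pair {H : Fin n → Fin n → ℂ} (hH : ∀ i j, H i j = H j i) {E : ℝ} (e p : V n)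
    (h1 : ‖∑ j, ∑ l, (⟨e j, p j⟩ : ℂ) * (⟨e l, p l⟩ : ℂ) * H j l‖ ≤ E)
    (h2 : ‖∑ j, ∑ l, (⟨e j, (-p) j⟩ : ℂ) * (⟨e l, (-p) l⟩ : ℂ) * H j l‖ ≤ E) :
    ‖Q H (fun j => (e j : ℂ)) (fun j => (p j : ℂ))‖ ≤ E ∧
    ‖Q H (fun j => (e j : ℂ)) (fun j => (e j : ℂ)) -
      Q H (fun j => (p j : ℂ)) (fun j => (p j : ℂ))‖ ≤ E := by
  rw [Q_mk hH] at h1 h2
  have e1 : (fun j => (((-p) j : ℝ) : ℂ)) = fun j => -(p j : ℂ) := by
    funext j
    simp
  rw [e1, Q_neg_neg, Q_neg_right] at h2
  set A := Q H (fun j => (e j : ℂ)) (fun j => (e j : ℂ)) -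
      Q H (fun j => (p j : ℂ)) (fun j => (p j : ℂ)) with hA
  set B := Q H (fun j => (e j : ℂ)) (fun j => (p j : ℂ)) with hB
  have hE : 0 ≤ E := (norm_nonneg _).trans h1
  constructor
  · have h3 : 4 * Complex.I * B = (A + 2 * Complex.I * B) - (A + 2 * Complex.I * -B) := by ring
    have h4 : ‖4 * Complex.I * B‖ ≤ 2 * E := by
      rw [h3]
      exact (norm_sub_le _ _).trans (by linarith)
    rw [norm_mul, norm_mul, Complex.norm_I] at h4
    have : ‖(4 : ℂ)‖ = 4 := by simp
    rw [this] at h4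
    linarith [norm_nonneg B]
  · have h3 : 2 * A = (A + 2 * Complex.I * B) + (A + 2 * Complex.I * -B) := by ring
    have h4 : ‖2 * A‖ ≤ 2 * E := by
      rw [h3]
      exact (norm_add_le _ _).trans (by linarith)
    rw [norm_mul] at h4
    have : ‖(2 : ℂ)‖ = 2 := by simp
    rw [this] at h4
    linarith [norm_nonneg A]

/-- The structure of `H`. -/
theorem decomp (i0 i1 : Fin n) (h01 : i1 ≠ i0) {H : Fin n → Fin n → ℂ}
    (hH : ∀ i j, H i j = H j i) (ν : V n)
    (hν : ∑ j, ν j ^ 2 = 1) {E : ℝ} (hE : 0 ≤ E)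
    (h : ∀ e p : V n, ∑ j, e j ^ 2 = 1 → ∑ j, p j ^ 2 = 1 → ∑ j, e j * p j = 0 →
      ∑ j, e j * ν j = 0 → ∑ j, p j * ν j = 0 →
      ‖∑ j, ∑ l, (⟨e j, p j⟩ : ℂ) * (⟨e l, p l⟩ : ℂ) * H j l‖ ≤ E) :
    ∃ (lam : ℂ) (v : Fin n → ℂ), ∀ l m,
      ‖H l m - ((if l = m then lam else 0) + ν l * v m + v l * ν m)‖ ≤ (n : ℝ) ^ 2 * E := by
  classical
  obtain ⟨O, hO1, hO2, hO0⟩ := exists_orth i0 ν hν
  have hrow : ∀ j k, ∑ l, O j l * O k l = if j = k then 1 else 0 := by
    intro j k
    have := congrFun (congrFun hO1 j) k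
    rw [Matrix.mul_apply, Matrix.one_apply] at this
    simpa using this
  have hcol : ∀ l m, ∑ j, O j l * O j m = if l = m then 1 else 0 := by
    intro l m
    have := congrFun (congrFun hO2 l) m
    rw [Matrix.mul_apply, Matrix.one_apply] at this
    simpa using this
  have hO : ∀ j l, |O j l| ≤ 1 := by
    intro j l
    have h1 := hrow j j
    rw [if_pos rfl] at h1
    have h2 : O j l * O j l ≤ 1 := by
      rw [← h1]
      exact Finset.single_le_sum (f := fun l => O j l * O j l)
        (fun l _ => mul_self_nonneg _) (Finset.mem_univ l)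
    exact abs_le_one_iff_mul_self_le_one.mpr h2
  set M : Fin n → Fin n → ℂ := fun j k =>
    Q H (fun l => ((O j l : ℝ) : ℂ)) (fun l => ((O k l : ℝ) : ℂ)) with hM
  have hMs : ∀ j k, M j k = M k j := fun j k => Q_symm hH _ _
  -- bounds of `M`
  have hMb : ∀ j k, j ≠ i0 → k ≠ i0 → j ≠ k → ‖M j k‖ ≤ E ∧ ‖M j j - M k k‖ ≤ E := by
    intro j k hj hk hjk
    have e1 : ∑ l, (O j) l ^ 2 = 1 := by
      have := hrow j j
      rw [if_pos rfl] at this
      simpa [sq] using this
    have e2 : ∑ l, (O k) l ^ 2 = 1 := by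
      have := hrow k k
      rw [if_pos rfl] at this
      simpa [sq] using this
    have e3 : ∑ l, (O j) l * (O k) l = 0 := by
      rw [hrow, if_neg hjk]
    have e4 : ∑ l, (O j) l * ν l = 0 := by
      have := hrow j i0
      rw [if_neg hj] at this
      simpa [hO0] using this
    have e5 : ∑ l, (O k) l * ν l = 0 := by
      have := hrow k i0
      rw [if_neg hk] at this
      simpa [hO0] using this
    exact pair hH (O j) (O k) (h _ _ e1 e2 e3 e4 e5)
      (h (O j) (-(O k)) e1 (by simpa using e2) (by simpa using e3) e4 (by simpa using e5))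
  -- inverse transformation
  have hinv : ∀ l m, H l m = ∑ j, ∑ k, (O j l : ℂ) * (O k m : ℂ) * M j k := by
    intro l m
    have hc : ∀ l m, ∑ j, (O j l : ℂ) * (O j m : ℂ) = if l = m then 1 else 0 := by
      intro l m
      have := congrArg (fun x : ℝ => (x : ℂ)) (hcol l m)
      push_cast at this
      rw [this]
      split_ifs <;> simp
    have e1 : ∑ j, ∑ k, (O j l : ℂ) * (O k m : ℂ) * M j k =
        ∑ a, ∑ b, (∑ j, (O j l : ℂ) * (O j a : ℂ)) * (∑ k, (O k m : ℂ) * (O k b : ℂ)) * H a b := by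
      have s1 : ∀ a b, (∑ j, (O j l : ℂ) * (O j a : ℂ)) * (∑ k, (O k m : ℂ) * (O k b : ℂ)) * H a b
          = ∑ j, ∑ k, (O j l : ℂ) * (O j a : ℂ) * ((O k m : ℂ) * (O k b : ℂ)) * H a b := by
        intro a b
        rw [Finset.sum_mul_sum, Finset.sum_mul]
        refine Finset.sum_congr rfl fun j _ => ?_
        rw [Finset.sum_mul]
      simp only [s1]
      have s2 : ∀ j k, (O j l : ℂ) * (O k m : ℂ) * M j k =
          ∑ a, ∑ b, (O j l : ℂ) * (O j a : ℂ) * ((O k m : ℂ) * (O k b : ℂ)) * H a b := by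
        intro j k
        simp only [hM, Q, Finset.mul_sum]
        refine Finset.sum_congr rfl fun a _ => Finset.sum_congr rfl fun b _ => ?_
        ring
      simp only [s2]
      calc ∑ j, ∑ k, ∑ a, ∑ b, (O j l : ℂ) * (O j a : ℂ) * ((O k m : ℂ) * (O k b : ℂ)) * H a b
          = ∑ j, ∑ a, ∑ k, ∑ b, (O j l : ℂ) * (O j a : ℂ) * ((O k m : ℂ) * (O k b : ℂ)) * H a b :=
            Finset.sum_congr rfl fun j _ => Finset.sum_comm
        _ = ∑ a, ∑ j, ∑ k, ∑ b, (O j l : ℂ) * (O j a : ℂ) * ((O k m : ℂ) * (O k b : ℂ)) * H a b :=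
            Finset.sum_comm
        _ = ∑ a, ∑ j, ∑ b, ∑ k, (O j l : ℂ) * (O j a : ℂ) * ((O k m : ℂ) * (O k b : ℂ)) * H a b :=
            Finset.sum_congr rfl fun a _ => Finset.sum_congr rfl fun j _ => Finset.sum_comm
        _ = ∑ a, ∑ b, ∑ j, ∑ k, (O j l : ℂ) * (O j a : ℂ) * ((O k m : ℂ) * (O k b : ℂ)) * H a b :=
            Finset.sum_congr rfl fun a _ => Finset.sum_comm
    rw [e1]
    simp only [hc]
    simp
  set lam : ℂ := M i1 i1 with hlam
  set W : Fin n → ℂ := fun k => if k = i0 then (M i0 i0 - lam) / 2 else M i0 k with hW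
  set R : Fin n → Fin n → ℂ := fun j k => M j k - ((if j = k then lam else 0) +
    (if j = i0 then W k else 0) + (if k = i0 then W j else 0)) with hR
  have hRb : ∀ j k, ‖R j k‖ ≤ E := by
    intro j k
    by_cases hj : j = i0
    · by_cases hk : k = i0
      · have : R j k = 0 := by
          simp only [hR, hW, hj, hk, if_true]
          ring
        rw [this, norm_zero]
        exact hE
      · have : R j k = 0 := by
          have h1 : ¬ i0 = k := fun h => hk h.symm
          simp only [hR, hW, hj, hk, h1, if_true, if_false]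
          ring
        rw [this, norm_zero]
        exact hE
    · by_cases hk : k = i0
      · have : R j k = 0 := by
          simp only [hR, hW, hj, hk, if_true, if_false]
          rw [hMs j i0]
          ring
        rw [this, norm_zero]
        exact hE
      · by_cases hjk : j = k
        · have : R j k = M j j - M i1 i1 := by
            simp only [hR, hj, hk, hjk, if_true, if_false, hlam]
            ring
          rw [this]
          by_cases h1 : j = i1
          · rw [h1, sub_self, norm_zero]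
            exact hE
          · exact (hMb j i1 hj h01 h1).2
        · have : R j k = M j k := by
            simp only [hR, hj, hk, hjk, if_false]
            ring
          rw [this]
          exact (hMb j k hj hk hjk).1
  refine ⟨lam, fun m => ∑ k, (O k m : ℂ) * W k, fun l m => ?_⟩
  have key : H l m - ((if l = m then lam else 0) + ν l * (∑ k, (O k m : ℂ) * W k) +
      (∑ k, (O k l : ℂ) * W k) * ν m) = ∑ j, ∑ k, (O j l : ℂ) * (O k m : ℂ) * R j k := by
    have hc : ∀ l m, ∑ j, (O j l : ℂ) * (O j m : ℂ) = if l = m then 1 else 0 := by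
      intro l m
      have := congrArg (fun x : ℝ => (x : ℂ)) (hcol l m)
      push_cast at this
      rw [this]
      split_ifs <;> simp
    have t1 : ∑ j, ∑ k, (O j l : ℂ) * (O k m : ℂ) * (if j = k then lam else 0) =
        if l = m then lam else 0 := by
      have : ∀ j, ∑ k, (O j l : ℂ) * (O k m : ℂ) * (if j = k then lam else 0) =
          (O j l : ℂ) * (O j m : ℂ) * lam := by
        intro j
        simp
      simp only [this]
      rw [← Finset.sum_mul, hc]
      split_ifs <;> simp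
    have t2 : ∑ j, ∑ k, (O j l : ℂ) * (O k m : ℂ) * (if j = i0 then W k else 0) =
        ν l * (∑ k, (O k m : ℂ) * W k) := by
      rw [Finset.sum_eq_single i0]
      · simp only [if_true, hO0, Finset.mul_sum]
        refine Finset.sum_congr rfl fun k _ => ?_
        ring
      · intro j _ hj
        simp [hj]
      · simp
    have t3 : ∑ j, ∑ k, (O j l : ℂ) * (O k m : ℂ) * (if k = i0 then W j else 0) =
        (∑ k, (O k l : ℂ) * W k) * ν m := by
      rw [Finset.sum_mul]
      refine Finset.sum_congr rfl fun j _ => ?_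
      rw [Finset.sum_eq_single i0]
      · simp only [if_true, hO0]
        ring
      · intro k _ hk
        simp [hk]
      · simp
    rw [hinv l m, ← t1, ← t2, ← t3]
    simp only [← Finset.sum_add_distrib, ← Finset.sum_sub_distrib]
    refine Finset.sum_congr rfl fun j _ => Finset.sum_congr rfl fun k _ => ?_
    simp only [hR]
    ring
  rw [key]
  calc ‖∑ j, ∑ k, (O j l : ℂ) * (O k m : ℂ) * R j k‖
      ≤ ∑ j, ∑ k, ‖(O j l : ℂ) * (O k m : ℂ) * R j k‖ :=
        (norm_sum_le _ _).trans (Finset.sum_le_sum fun j _ => norm_sum_le _ _)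
    _ ≤ ∑ _j : Fin n, ∑ _k : Fin n, E := by
        refine Finset.sum_le_sum fun j _ => Finset.sum_le_sum fun k _ => ?_
        rw [norm_mul, norm_mul, Complex.norm_real, Complex.norm_real, Real.norm_eq_abs,
          Real.norm_eq_abs]
        have h1 := hO j l
        have h2 := hO k m
        have h3 : |O j l| * |O k m| ≤ 1 := by
          calc |O j l| * |O k m| ≤ 1 * 1 := mul_le_mul h1 h2 (abs_nonneg _) zero_le_one
            _ = 1 := one_mul 1
        calc |O j l| * |O k m| * ‖R j k‖ ≤ 1 * E :=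
              mul_le_mul h3 (hRb j k) (norm_nonneg _) zero_le_one
          _ = E := one_mul E
    _ = (n : ℝ) ^ 2 * E := by
        simp
        ring

/-- `4 v_i = (2 τ·v - |ξ| g) + (2 τ̄·v + |ξ| g)`. -/
theorem vbound {H : Fin n → Fin n → ℂ} {ξ ν : V n} {E r ρ : ℝ} {lam : ℂ} {v : Fin n → ℂ}
    (i j : Fin n) (hij : j ≠ i) (hE : 0 ≤ E) (hr : 0 < r) (hξ : 0 < ρ)
    (hξr : ∀ j, r * ρ ≤ |ξ j|) (hνd : ν = fun k => ξ k / ρ)
    (hv : ∀ l m, ‖H l m - ((if l = m then lam else 0) + ν l * v m + v l * ν m)‖ ≤ (n : ℝ) ^ 2 * E)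
    (τ : Fin n → ℂ) (hτ : ∀ k, τ k = ⟨if k = i then 1 else 0, if k = j then 1 else 0⟩)
    (g : ℂ)
    (hg1 : ‖(∑ j, ∑ l, τ j * τ l * H j l) - (∑ j, τ j * ξ j) * g‖ ≤ E)
    (hg2 : ‖(∑ j, ∑ l, starRingEnd ℂ (τ j) * starRingEnd ℂ (τ l) * H j l)
      + (∑ j, starRingEnd ℂ (τ j) * ξ j) * g‖ ≤ E) :
    ‖v i‖ ≤ (1 + 4 * (n : ℝ) ^ 2) * E / (2 * r) := by
  classical
  -- general estimate for a null vector `σ`
  have gen : ∀ (σ : Fin n → ℂ) (b : ℝ) (s : ℂ), (b = 1 ∨ b = -1) →
      (∀ k, σ k = ⟨if k = i then 1 else 0, b * if k = j then 1 else 0⟩) →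
      ‖(∑ j, ∑ l, σ j * σ l * H j l) - (∑ j, σ j * ξ j) * s‖ ≤ E →
      ‖2 * (∑ k, σ k * v k) - ρ * s‖ ≤ (1 + 4 * (n : ℝ) ^ 2) * E / r := by
    intro σ b s hb hσ hs
    have hb2 : b * b = 1 := by rcases hb with rfl | rfl <;> norm_num
    have hσ' : ∀ k, σ k = (if k = i then 1 else 0) + (b : ℂ) * Complex.I * (if k = j then 1 else 0) := by
      intro k
      rw [hσ, Complex.mk_eq_add_mul_I]
      split_ifs <;> simp
    have hσn : ∀ k, ‖σ k‖ ≤ (if k = i then 1 else 0) + (if k = j then 1 else 0) := by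
      intro k
      rw [hσ']
      refine (norm_add_le _ _).trans (add_le_add ?_ ?_)
      · split_ifs <;> simp
      · rw [norm_mul, norm_mul, Complex.norm_I, Complex.norm_real, Real.norm_eq_abs]
        have : |b| = 1 := by rcases hb with rfl | rfl <;> norm_num
        rw [this]
        split_ifs <;> simp
    have hσs : ∑ k, ‖σ k‖ ≤ 2 := by
      refine (Finset.sum_le_sum fun k _ => hσn k).trans ?_
      rw [Finset.sum_add_distrib]
      simp
      norm_num
    have hnull : ∑ k, σ k * σ k = 0 := by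
      have : ∀ k, σ k * σ k = (if k = i then 1 else 0) - (if k = j then 1 else 0) := by
        intro k
        rw [hσ']
        have hI := Complex.I_mul_I
        have hb3 : (b : ℂ) * b = 1 := by exact_mod_cast hb2
        by_cases h1 : k = i
        · have h2 : k ≠ j := fun h => hij (h.symm.trans h1)
          simp [h1, h2, hij.symm]
        · by_cases h2 : k = j
          · simp only [h1, h2, if_true, if_false]
            by_cases h3 : j = i
            · exact absurd h3 hij
            · simp only [h3, if_false]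
              linear_combination hI * (b : ℂ) * b - hb3
          · simp [h1, h2]
      simp only [this, Finset.sum_sub_distrib]
      simp
    set a : ℂ := ∑ k, σ k * ν k with ha
    set c : ℂ := ∑ k, σ k * v k with hc
    have hξa : ∑ k, σ k * ξ k = ρ * a := by
      rw [ha, Finset.mul_sum]
      refine Finset.sum_congr rfl fun k _ => ?_
      rw [hνd]
      have h0 : (ρ : ℂ) ≠ 0 := by exact_mod_cast hξ.ne'
      push_cast
      field_simp
    have hquad : ∑ k, ∑ l, σ k * σ l * H k l = 2 * a * c +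
        ∑ k, ∑ l, σ k * σ l * (H k l - ((if k = l then lam else 0) + ν k * v l + v k * ν l)) := by
      have e1 : 2 * a * c = ∑ k, ∑ l, σ k * σ l * ((if k = l then lam else 0) + ν k * v l + v k * ν l) := by
        have s1 : ∑ k, ∑ l, σ k * σ l * (if k = l then lam else 0) = 0 := by
          have : ∀ k, ∑ l, σ k * σ l * (if k = l then lam else 0) = σ k * σ k * lam := by
            intro k
            simp
          simp only [this]
          rw [← Finset.sum_mul, hnull, zero_mul]
        have s2 : a * c = ∑ k, ∑ l, σ k * σ l * (ν k * v l) := by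
          rw [ha, hc, Finset.sum_mul_sum]
          refine Finset.sum_congr rfl fun k _ => Finset.sum_congr rfl fun l _ => ?_
          ring
        have s3 : c * a = ∑ k, ∑ l, σ k * σ l * (v k * ν l) := by
          rw [ha, hc, Finset.sum_mul_sum]
          refine Finset.sum_congr rfl fun k _ => Finset.sum_congr rfl fun l _ => ?_
          ring
        have : 2 * a * c = ∑ k, ∑ l, σ k * σ l * (if k = l then lam else 0) + a * c + c * a := by
          rw [s1]
          ring
        rw [this, s2, s3]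
        simp only [← Finset.sum_add_distrib]
        refine Finset.sum_congr rfl fun k _ => Finset.sum_congr rfl fun l _ => ?_
        ring
      rw [e1]
      simp only [← Finset.sum_add_distrib]
      refine Finset.sum_congr rfl fun k _ => Finset.sum_congr rfl fun l _ => ?_
      ring
    have hrem : ‖∑ k, ∑ l, σ k * σ l *
        (H k l - ((if k = l then lam else 0) + ν k * v l + v k * ν l))‖ ≤ 4 * (n : ℝ) ^ 2 * E := by
      have hN : 0 ≤ (n : ℝ) ^ 2 * E := by positivity
      calc _ ≤ ∑ k, ∑ l, ‖σ k * σ l *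
          (H k l - ((if k = l then lam else 0) + ν k * v l + v k * ν l))‖ :=
            (norm_sum_le _ _).trans (Finset.sum_le_sum fun j _ => norm_sum_le _ _)
        _ ≤ ∑ k, ∑ l, ‖σ k‖ * ‖σ l‖ * ((n : ℝ) ^ 2 * E) := by
            refine Finset.sum_le_sum fun k _ => Finset.sum_le_sum fun l _ => ?_
            rw [norm_mul, norm_mul]
            exact mul_le_mul_of_nonneg_left (hv k l) (by positivity)
        _ = (∑ k, ‖σ k‖) * (∑ l, ‖σ l‖) * ((n : ℝ) ^ 2 * E) := by
            rw [Finset.sum_mul_sum, Finset.sum_mul]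
            refine Finset.sum_congr rfl fun k _ => ?_
            rw [Finset.sum_mul]
        _ ≤ 2 * 2 * ((n : ℝ) ^ 2 * E) := by
            refine mul_le_mul_of_nonneg_right ?_ hN
            exact mul_le_mul hσs hσs (Finset.sum_nonneg fun _ _ => norm_nonneg _) (by norm_num)
        _ = 4 * (n : ℝ) ^ 2 * E := by ring
    have hac : ‖a * (2 * c - ρ * s)‖ ≤ (1 + 4 * (n : ℝ) ^ 2) * E := by
      have e1 : a * (2 * c - ρ * s) = ((∑ j, ∑ l, σ j * σ l * H j l) - (∑ j, σ j * ξ j) * s) -
          ∑ k, ∑ l, σ k * σ l * (H k l - ((if k = l then lam else 0) + ν k * v l + v k * ν l)) := by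
        rw [hquad, hξa]
        ring
      rw [e1]
      exact (norm_sub_le _ _).trans (by linarith)
    have har : r ≤ ‖a‖ := by
      have e1 : a = ν i + (b : ℂ) * Complex.I * ν j := by
        rw [ha]
        simp only [hσ', add_mul, Finset.sum_add_distrib]
        simp
      have e2 : a.re = ν i := by
        rw [e1]
        simp
      have e3 : |a.re| ≤ ‖a‖ := Complex.abs_re_le_norm a
      rw [e2, hνd] at e3
      simp only at e3
      rw [abs_div, abs_of_pos hξ] at e3
      refine le_trans ?_ e3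
      rw [le_div_iff₀ hξ]
      exact hξr i
    rw [norm_mul] at hac
    rw [le_div_iff₀ hr]
    calc ‖2 * c - ρ * s‖ * r ≤ ‖2 * c - ρ * s‖ * ‖a‖ :=
          mul_le_mul_of_nonneg_left har (norm_nonneg _)
      _ = ‖a‖ * ‖2 * c - ρ * s‖ := mul_comm _ _
      _ ≤ _ := hac
  have g1 := gen τ 1 g (Or.inl rfl) (fun k => by rw [hτ, one_mul]) hg1
  have g2 := gen (fun k => starRingEnd ℂ (τ k)) (-1) (-g) (Or.inr rfl)
    (fun k => by
      rw [hτ]
      apply Complex.ext
      · simp
      · simp only [Complex.conj_im]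
        ring) (by simpa using hg2)
  have hsum : 4 * v i = (2 * (∑ k, τ k * v k) - ρ * g) +
      (2 * (∑ k, starRingEnd ℂ (τ k) * v k) - ρ * -g) := by
    have e1 : (∑ k, τ k * v k) + (∑ k, starRingEnd ℂ (τ k) * v k) = 2 * v i := by
      rw [← Finset.sum_add_distrib]
      have : ∀ k, τ k * v k + starRingEnd ℂ (τ k) * v k = if k = i then 2 * v i else 0 := by
        intro k
        rw [← add_mul, Complex.add_conj, hτ]
        by_cases h1 : k = i
        · simp [h1]
        · simp [h1]
      simp only [this]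
      simp
    linear_combination (-2) * e1
  have h4 : ‖4 * v i‖ ≤ 2 * ((1 + 4 * (n : ℝ) ^ 2) * E / r) := by
    rw [hsum]
    exact (norm_add_le _ _).trans (by linarith)
  rw [norm_mul] at h4
  have : ‖(4 : ℂ)‖ = 4 := by simp
  rw [this] at h4
  have e5 : (1 + 4 * (n : ℝ) ^ 2) * E / (2 * r) = (1 + 4 * (n : ℝ) ^ 2) * E / r / 2 := by
    field_simp
  rw [e5]
  linarith

/-- (C_AL) linear algebra. -/
theorem al : RowALC := by
  intro n hn
  refine ⟨2 + 10 * (n : ℝ) ^ 2, by nlinarith [sq_nonneg (n : ℝ)], ?_⟩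
  intro H hH ξ E r hE hr hr1 hξ hξr h1 jj hjj h2 i j l
  have hn0 : 0 < n := by omega
  have hn1 : 1 < n := by omega
  set ρ : ℝ := nr ξ with hρ
  set ν : V n := fun k => ξ k / ρ with hνd
  have hsq : ρ ^ 2 = ∑ j, ξ j ^ 2 := by
    rw [hρ, nr, Real.sq_sqrt (Finset.sum_nonneg fun _ _ => sq_nonneg _)]
  have hν : ∑ j, ν j ^ 2 = 1 := by
    simp only [hνd, div_pow, ← Finset.sum_div]
    rw [← hsq, div_self (by positivity)]
  have hnr1 : ∀ e : V n, ∑ j, e j ^ 2 = 1 → nr e = 1 := by
    intro e he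
    rw [nr, he, Real.sqrt_one]
  obtain ⟨lam, v, hv⟩ := decomp (⟨0, hn0⟩ : Fin n) ⟨1, hn1⟩ (by simp) hH ν hν hE
    (fun e p he hp hep heν hpν => by
      refine h1 e p (hnr1 e he) (hnr1 p hp) hep ?_ ?_
      · have : ∑ j, e j * ξ j = ρ * ∑ j, e j * ν j := by
          rw [Finset.mul_sum]
          refine Finset.sum_congr rfl fun k _ => ?_
          simp only [hνd]
          field_simp
        rw [this, heν, mul_zero]
      · have : ∑ j, p j * ξ j = ρ * ∑ j, p j * ν j := by
          rw [Finset.mul_sum]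
          refine Finset.sum_congr rfl fun k _ => ?_
          simp only [hνd]
          field_simp
        rw [this, hpν, mul_zero])
  have hvb : ∀ i, ‖v i‖ ≤ (1 + 4 * (n : ℝ) ^ 2) * E / (2 * r) := by
    intro i
    obtain ⟨g, hg1, hg2⟩ := h2 i
    exact vbound i (jj i) (hjj i) hE hr hξ hξr hνd hv (tg jj i) (fun k => rfl) g hg1 hg2
  have hνb : ∀ k, ‖(ν k : ℂ)‖ ≤ 1 := by
    intro k
    rw [Complex.norm_real, Real.norm_eq_abs]
    have h3 : ν k ^ 2 ≤ 1 := by
      rw [← hν]
      exact Finset.single_le_sum (f := fun l => ν l ^ 2) (fun l _ => sq_nonneg _)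
        (Finset.mem_univ k)
    exact abs_le_one_iff_mul_self_le_one.mpr (by nlinarith)
  set T : ℝ := (1 + 4 * (n : ℝ) ^ 2) * E / (2 * r) with hT
  have hprod : ∀ a b, ‖(ν a : ℂ) * v b‖ ≤ T := by
    intro a b
    rw [norm_mul]
    calc ‖(ν a : ℂ)‖ * ‖v b‖ ≤ 1 * T := mul_le_mul (hνb a) (hvb b) (norm_nonneg _) zero_le_one
      _ = T := one_mul T
  have hnE : (n : ℝ) ^ 2 * E ≤ (n : ℝ) ^ 2 * E / r := by
    rw [le_div_iff₀ hr]
    have : 0 ≤ (n : ℝ) ^ 2 * E := by positivity
    nlinarith
  have hfin : 4 * T + 2 * ((n : ℝ) ^ 2 * E) ≤ (2 + 10 * (n : ℝ) ^ 2) * E / r := by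
    have e1 : 4 * T = (2 + 8 * (n : ℝ) ^ 2) * E / r := by
      rw [hT]
      field_simp
      ring
    have e2 : (2 + 10 * (n : ℝ) ^ 2) * E / r = (2 + 8 * (n : ℝ) ^ 2) * E / r +
        2 * ((n : ℝ) ^ 2 * E / r) := by
      field_simp
      ring
    rw [e1, e2]
    linarith
  have hT0 : 0 ≤ T := (norm_nonneg _).trans (hprod i j)
  have hN0 : 0 ≤ (n : ℝ) ^ 2 * E := by positivity
  refine le_trans ?_ hfin
  by_cases hij : i = j
  · subst hij
    rw [if_pos rfl]
    have h3 := hv i i
    have h4 := hv l l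
    rw [if_pos rfl] at h3 h4
    have e1 : H i i - H l l = (H i i - (lam + ν i * v i + v i * ν i)) -
        (H l l - (lam + ν l * v l + v l * ν l)) + (ν i * v i + ν i * v i) -
        (ν l * v l + ν l * v l) := by ring
    rw [e1]
    have a1 := hprod i i
    have a2 := hprod l l
    refine (norm_sub_le _ _).trans ?_
    have b1 : ‖(ν l : ℂ) * v l + ν l * v l‖ ≤ 2 * T := (norm_add_le _ _).trans (by linarith)
    have b2 : ‖(ν i : ℂ) * v i + ν i * v i‖ ≤ 2 * T := (norm_add_le _ _).trans (by linarith)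
    have b3 : ‖(H i i - (lam + ν i * v i + v i * ν i)) -
        (H l l - (lam + ν l * v l + v l * ν l)) + (ν i * v i + ν i * v i)‖ ≤
        2 * ((n : ℝ) ^ 2 * E) + 2 * T := by
      refine (norm_add_le _ _).trans (add_le_add ((norm_sub_le _ _).trans ?_) b2)
      linarith
    linarith
  · rw [if_neg hij, sub_zero]
    have h3 := hv i j
    rw [if_neg hij] at h3
    have e1 : H i j = (H i j - (0 + ν i * v j + v i * ν j)) + (ν i * v j + ν j * v i) := by ring
    rw [e1]
    have a1 := hprod i j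
    have a2 := hprod j i
    have b1 : ‖(ν i : ℂ) * v j + ν j * v i‖ ≤ 2 * T := (norm_add_le _ _).trans (by linarith)
    refine (norm_add_le _ _).trans ?_
    linarith

end Vale.Agent.P088.LR.CC.H74
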